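import Vale.Agent.P200.BC

open MvPolynomial Module

theorem Vale.Agent.Results.P200.EqualDegrees.result (K : Type*) [Field K] (n c : ℕ) (hc : 1 ≤ c)
    (hcn : c ≤ n) (a : ℕ) (ha : 2 ≤ a) (f : Fin c → MvPolynomial (Fin n) K)
    (hf : ∀ i, (f i).IsHomogeneous a)
    (hreg : ∀ i g, g * f i ∈ Ideal.span (f '' {j | j < i}) → g ∈ Ideal.span (f '' {j | j < i}))
    (I : Ideal (MvPolynomial (Fin n) K))
    (_hI : ∀ p ∈ I, ∀ d, homogeneousComponent d p ∈ I) (hfI : ∀ i, f i ∈ I) :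
    ∃ s : Set (Fin n →₀ ℕ),
      (∀ i, X (Fin.castLE hcn i) ^ a ∈ Ideal.span ((fun m => monomial m (1 : K)) '' s)) ∧
      ∀ d, finrank K ↥(homogeneousSubmodule (Fin n) K d ⊓ I.restrictScalars K) =
        finrank K ↥(homogeneousSubmodule (Fin n) K d ⊓
          (Ideal.span ((fun m => monomial m (1 : K)) '' s)).restrictScalars K) :=
  Vale.Agent.P200.final (F := AlgebraicClosure K) hcn (fun _ => a) I
    (Vale.Agent.P200.equal_closed hcn (by omega) ha (fun i => (hf i).map _)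
      (Vale.Agent.P200.reg_map hreg) _ fun i => Ideal.mem_map_of_mem _ (hfI i))
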